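import Vale.Agent.P292.SpecBridge

/-! Closed positive quaternionic-Kaehler manifolds are locally symmetric. -/

namespace Vale.Agent.Results.P292.LeBrunSalamon

open Vale.Agent.P292

theorem result (m : ℕ) (hm : 2 ≤ m) :
    Spec.Holds m (EuclideanSpace.basisFun (Fin (4 * m)) ℝ).toBasis :=
  spec_holds m hm

end Vale.Agent.Results.P292.LeBrunSalamon
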